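import Vale.Agent.P080h22.Main

namespace Vale.Agent.P080h22

open Filter Topology Set

/-- The gradient of a separated infinity-harmonic function is locally Hoelder with exponent 1/3,
written in cubed form. -/
theorem holder {d : ℕ} {Ω : Set (E d)} (hΩ : IsOpen Ω) {u : E d → ℝ}
    (hu : IsInfinityHarmonic Ω u) {f : Fin d → ℝ → ℝ} (hsep : ∀ x ∈ Ω, u x = ∑ i, f i (x i))
    {z : E d} (hz : z ∈ Ω) :
    ∃ ρ > 0, ∃ C : ℝ, 0 ≤ C ∧ ∀ x ∈ Metric.ball z ρ, ∀ y ∈ Metric.ball z ρ,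
      ‖fderiv ℝ u x - fderiv ℝ u y‖ ^ 3 ≤ C * ‖x - y‖ := by
  obtain ⟨ρ, hρ, hbox, C, hC, hfac⟩ := factors hΩ hu hsep hz
  refine ⟨ρ, hρ, (Fintype.card (Fin d) : ℝ) ^ 3 * C, by positivity, ?_⟩
  have hcoord : ∀ x ∈ Metric.ball z ρ, ∀ j, x j ∈ Ioo (z j - ρ) (z j + ρ) := by
    intro x hx j
    have h1 : ‖(x - z) j‖ ≤ ‖x - z‖ := PiLp.norm_apply_le (x - z) j
    have h2 : ‖x - z‖ < ρ := by simpa [dist_eq_norm] using Metric.mem_ball.1 hx
    rw [PiLp.sub_apply, Real.norm_eq_abs] at h1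
    have h3 : |x j - z j| < ρ := lt_of_le_of_lt h1 h2
    exact ⟨by linarith [(abs_lt.1 h3).1], by linarith [(abs_lt.1 h3).2]⟩
  have hfd : ∀ x ∈ Metric.ball z ρ, fderiv ℝ u x
      = ∑ j, deriv (f j) (x j) • (EuclideanSpace.proj j : E d →L[ℝ] ℝ) := by
    intro x hx
    have hxΩ : x ∈ Ω := hbox x (fun j => abs_lt.2
      ⟨by linarith [(hcoord x hx j).1], by linarith [(hcoord x hx j).2]⟩)
    have H : HasFDerivAt (fun y : E d => ∑ j, f j (y j))
        (∑ j, deriv (f j) (x j) • (EuclideanSpace.proj j : E d →L[ℝ] ℝ)) x :=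
      HasFDerivAt.fun_sum (fun j _ =>
        hasFDerivAt_coord j x ((hfac j).1 _ (hcoord x hx j)).hasDerivAt)
    exact (H.congr_of_eventuallyEq
      (by filter_upwards [hΩ.mem_nhds hxΩ] with y hy using hsep y hy)).fderiv
  intro x hx y hy
  rw [hfd x hx, hfd y hy, ← Finset.sum_sub_distrib]
  set b : Fin d → ℝ := fun j => |deriv (f j) (x j) - deriv (f j) (y j)| with hbdef
  have hnorm : ‖∑ j, (deriv (f j) (x j) • (EuclideanSpace.proj j : E d →L[ℝ] ℝ)
      - deriv (f j) (y j) • (EuclideanSpace.proj j : E d →L[ℝ] ℝ))‖ ≤ ∑ j, b j := by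
    refine (norm_sum_le _ _).trans (Finset.sum_le_sum fun j _ => ?_)
    rw [← sub_smul, norm_smul, Real.norm_eq_abs]
    have hp : ‖(EuclideanSpace.proj j : E d →L[ℝ] ℝ)‖ ≤ 1 :=
      ContinuousLinearMap.opNorm_le_bound _ zero_le_one (fun v => by
        rw [one_mul]; exact PiLp.norm_apply_le v j)
    calc _ ≤ b j * 1 := by gcongr
      _ = b j := mul_one _
  have hb : ∀ j, b j ^ 3 ≤ C * ‖x - y‖ := by
    intro j
    refine ((hfac j).2 _ (hcoord x hx j) _ (hcoord y hy j)).trans ?_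
    have h1 : ‖(x - y) j‖ ≤ ‖x - y‖ := PiLp.norm_apply_le (x - y) j
    rw [PiLp.sub_apply, Real.norm_eq_abs] at h1
    gcongr
  have hb0 : ∀ j, 0 ≤ b j := fun j => abs_nonneg _
  have hsum : (∑ j, b j) ^ 3 ≤ (Fintype.card (Fin d) : ℝ) ^ 3 * (C * ‖x - y‖) := by
    rcases Finset.univ.eq_empty_or_nonempty (α := Fin d) with h | h
    · have e : ∑ j, b j = 0 := by rw [h, Finset.sum_empty]
      rw [e]
      have e0 : (0 : ℝ) ^ 3 = 0 := by norm_num
      rw [e0]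
      positivity
    · obtain ⟨j0, _, hj0⟩ := Finset.exists_max_image Finset.univ b h
      have h1 : ∑ j, b j ≤ (Fintype.card (Fin d) : ℝ) * b j0 := by
        have := Finset.sum_le_card_nsmul Finset.univ b (b j0) (fun j hj => hj0 j hj)
        simpa [nsmul_eq_mul] using this
      calc (∑ j, b j) ^ 3 ≤ ((Fintype.card (Fin d) : ℝ) * b j0) ^ 3 :=
            pow_le_pow_left₀ (Finset.sum_nonneg fun j _ => hb0 j) h1 3
        _ = (Fintype.card (Fin d) : ℝ) ^ 3 * b j0 ^ 3 := by ring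
        _ ≤ _ := by
            have := hb j0
            gcongr
  calc _ ≤ (∑ j, b j) ^ 3 := pow_le_pow_left₀ (norm_nonneg _) hnorm 3
    _ ≤ _ := hsum
    _ = _ := by ring

end Vale.Agent.P080h22
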