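import Vale.Agent.P080h22.S1D

namespace Vale.Agent.P080h22

open Filter Topology Set S1D

/-- Euclidean space of dimension `d`. -/
abbrev E (d : ℕ) := EuclideanSpace ℝ (Fin d)

/-- First partial derivative of `φ` in the coordinate `i` at `z`. -/
noncomputable def pd {d : ℕ} (φ : E d → ℝ) (i : Fin d) (z : E d) : ℝ :=
  fderiv ℝ φ z (EuclideanSpace.single i 1)

/-- The unnormalized infinity Laplacian `∑ i j, φ_i φ_j φ_ij`. -/
noncomputable def infLap {d : ℕ} (φ : E d → ℝ) (z : E d) : ℝ :=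
  ∑ i, ∑ j, pd φ i z * pd φ j z * pd (pd φ j) i z

/-- `u` is continuous on `Ω` and a viscosity solution of the infinity Laplace equation there. -/
def IsInfinityHarmonic {d : ℕ} (Ω : Set (E d)) (u : E d → ℝ) : Prop :=
  ContinuousOn u Ω ∧ ∀ φ : E d → ℝ, ContDiff ℝ 2 φ → ∀ z ∈ Ω,
    (IsLocalMax (fun x => u x - φ x) z → 0 ≤ infLap φ z) ∧
    (IsLocalMin (fun x => u x - φ x) z → infLap φ z ≤ 0)

lemma hasFDerivAt_coord {d : ℕ} {h : ℝ → ℝ} {h' : ℝ} (j : Fin d) (z : E d)
    (hh : HasDerivAt h h' (z j)) :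
    HasFDerivAt (fun x : E d => h (x j)) (h' • (EuclideanSpace.proj j : E d →L[ℝ] ℝ)) z :=
  hh.comp_hasFDerivAt z (EuclideanSpace.proj j : E d →L[ℝ] ℝ).hasFDerivAt

/-- The separated test function. -/
noncomputable def Phi {d : ℕ} (s q c : Fin d → ℝ) : E d → ℝ :=
  fun x => ∑ j, par (s j) (q j) (c j) (x j)

lemma pd_Phi {d : ℕ} (s q c : Fin d → ℝ) (i : Fin d) :
    pd (Phi s q c) i = fun z => s i + q i * (z i - c i) := by
  funext z
  have H : HasFDerivAt (Phi s q c)
      (∑ j, (s j + q j * (z j - c j)) • (EuclideanSpace.proj j : E d →L[ℝ] ℝ)) z :=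
    HasFDerivAt.fun_sum (fun j _ => hasFDerivAt_coord j z (hasDerivAt_par _ _ _ _))
  unfold pd
  rw [H.fderiv]
  simp [EuclideanSpace.single_apply]

lemma pd_aff {d : ℕ} (a b c : ℝ) (j i : Fin d) (z : E d) :
    pd (fun x : E d => a + b * (x j - c)) i z = if i = j then b else 0 := by
  have hd : HasDerivAt (fun t : ℝ => a + b * (t - c)) b (z j) := by
    simpa using (((hasDerivAt_id (z j)).sub_const c).const_mul b).const_add a
  have H := hasFDerivAt_coord j z hd
  unfold pd
  rw [H.fderiv]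
  simp only [ContinuousLinearMap.smul_apply, smul_eq_mul]
  by_cases h : i = j
  · subst h; simp
  · have : j ≠ i := Ne.symm h
    simp [EuclideanSpace.single_apply, h, this]

lemma infLap_Phi {d : ℕ} (s q c : Fin d → ℝ) (z : E d) :
    infLap (Phi s q c) z = ∑ j, (s j + q j * (z j - c j)) ^ 2 * q j := by
  unfold infLap
  simp only [pd_Phi, pd_aff]
  refine Finset.sum_congr rfl fun i _ => ?_
  rw [Finset.sum_eq_single i]
  · simp only [if_true]; ring
  · intro j _ hj
    simp [Ne.symm hj]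
  · simp

lemma contDiff_Phi {d : ℕ} (s q c : Fin d → ℝ) : ContDiff ℝ 2 (Phi s q c) := by
  unfold Phi
  exact ContDiff.sum (fun j _ =>
    (contDiff_par _ _ _).comp (EuclideanSpace.proj j : E d →L[ℝ] ℝ).contDiff)

section tuple
variable {d : ℕ} {Ω : Set (E d)} {u : E d → ℝ} {f : Fin d → ℝ → ℝ}

lemma sep_sub (hsep : ∀ x ∈ Ω, u x = ∑ i, f i (x i)) (s q c : Fin d → ℝ) (y : E d) (hy : y ∈ Ω) :
    u y - Phi s q c y = ∑ j, (f j (y j) - par (s j) (q j) (c j) (y j)) := by
  rw [hsep y hy, Finset.sum_sub_distrib]; rfl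

lemma tuple_max (hΩ : IsOpen Ω) (hu : IsInfinityHarmonic Ω u)
    (hsep : ∀ x ∈ Ω, u x = ∑ i, f i (x i)) (s q c : Fin d → ℝ) (z : E d) (hz : z ∈ Ω)
    (hmax : ∀ j, IsLocalMax (fun τ => f j τ - par (s j) (q j) (c j) τ) (z j)) :
    0 ≤ ∑ j, (s j + q j * (z j - c j)) ^ 2 * q j := by
  rw [← infLap_Phi]
  apply (hu.2 _ (contDiff_Phi s q c) z hz).1
  have h1 : ∀ᶠ x in 𝓝 z, ∀ j, f j (x j) - par (s j) (q j) (c j) (x j)
      ≤ f j (z j) - par (s j) (q j) (c j) (z j) := by
    rw [eventually_all]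
    intro j
    have hc : Tendsto (fun x : E d => x j) (𝓝 z) (𝓝 (z j)) :=
      (EuclideanSpace.proj j : E d →L[ℝ] ℝ).continuous.tendsto z
    exact hc.eventually (hmax j)
  show ∀ᶠ x in 𝓝 z, u x - Phi s q c x ≤ u z - Phi s q c z
  filter_upwards [h1, hΩ.mem_nhds hz] with x hx1 hx2
  rw [sep_sub hsep s q c x hx2, sep_sub hsep s q c z hz]
  exact Finset.sum_le_sum fun j _ => hx1 j

lemma tuple_min (hΩ : IsOpen Ω) (hu : IsInfinityHarmonic Ω u)
    (hsep : ∀ x ∈ Ω, u x = ∑ i, f i (x i)) (s q c : Fin d → ℝ) (z : E d) (hz : z ∈ Ω)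
    (hmin : ∀ j, IsLocalMin (fun τ => f j τ - par (s j) (q j) (c j) τ) (z j)) :
    ∑ j, (s j + q j * (z j - c j)) ^ 2 * q j ≤ 0 := by
  rw [← infLap_Phi]
  apply (hu.2 _ (contDiff_Phi s q c) z hz).2
  have h1 : ∀ᶠ x in 𝓝 z, ∀ j, f j (z j) - par (s j) (q j) (c j) (z j)
      ≤ f j (x j) - par (s j) (q j) (c j) (x j) := by
    rw [eventually_all]
    intro j
    have hc : Tendsto (fun x : E d => x j) (𝓝 z) (𝓝 (z j)) :=
      (EuclideanSpace.proj j : E d →L[ℝ] ℝ).continuous.tendsto z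
    exact hc.eventually (hmin j)
  show ∀ᶠ x in 𝓝 z, u z - Phi s q c z ≤ u x - Phi s q c x
  filter_upwards [h1, hΩ.mem_nhds hz] with x hx1 hx2
  rw [sep_sub hsep s q c x hx2, sep_sub hsep s q c z hz]
  exact Finset.sum_le_sum fun j _ => hx1 j

end tuple

lemma exists_box {d : ℕ} {Ω : Set (E d)} (hΩ : IsOpen Ω) {z : E d} (hz : z ∈ Ω) :
    ∃ ρ > 0, ∀ x : E d, (∀ j, |x j - z j| < ρ) → x ∈ Ω := by
  have hop : IsOpen ((WithLp.toLp 2 : (Fin d → ℝ) → E d) ⁻¹' Ω) :=
    hΩ.preimage (PiLp.continuous_toLp 2 _)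
  obtain ⟨ρ, hρ, hb⟩ := Metric.isOpen_iff.1 hop (z.ofLp) (by simpa using hz)
  refine ⟨ρ, hρ, fun x hx => ?_⟩
  have h1 : x.ofLp ∈ Metric.ball z.ofLp ρ := by
    rw [Metric.mem_ball, dist_pi_lt_iff hρ]
    intro j
    rw [Real.dist_eq]
    simpa using hx j
  simpa using hb h1

lemma exists_touch {f : ℝ → ℝ} {c ρ : ℝ} (hρ : 0 < ρ) (hf : ContinuousOn f (Ioo (c - ρ) (c + ρ))) :
    ∃ K t, t ∈ Ioo (c - ρ) (c + ρ) ∧ IsLocalMax (fun τ => f τ - par 0 K c τ) t := by
  set r := ρ / 2 with hr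
  have hrp : 0 < r := by positivity
  have hsub : Icc (c - r) (c + r) ⊆ Ioo (c - ρ) (c + ρ) := fun τ hτ =>
    ⟨by linarith [hτ.1], by linarith [hτ.2]⟩
  obtain ⟨C, hC⟩ := isCompact_Icc.exists_bound_of_continuousOn (hf.mono hsub)
  set K := (2 * |C| + 1) * 2 / r ^ 2 with hK
  have hKr : K / 2 * r ^ 2 = 2 * |C| + 1 := by simp only [hK]; field_simp
  have hcont : ContinuousOn (fun τ => f τ - par 0 K c τ) (Icc (c - r) (c + r)) :=
    (hf.mono hsub).sub (contDiff_par 0 K c).continuous.continuousOn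
  obtain ⟨t, htm, htmax⟩ := isCompact_Icc.exists_isMaxOn (nonempty_Icc.2 (by linarith)) hcont
  have hcI : c ∈ Icc (c - r) (c + r) := ⟨by linarith, by linarith⟩
  have hfc : -|C| ≤ f c := by
    have := hC c hcI
    rw [Real.norm_eq_abs] at this
    have h2 := le_abs_self C
    have h3 := (abs_le.1 this).1
    have h4 : C ≤ |C| := le_abs_self C
    linarith
  have hvc : f c - par 0 K c c = f c := by simp [par]
  have hmax' : f c ≤ f t - par 0 K c t := by
    have := htmax hcI
    simp only [mem_setOf_eq] at this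
    rwa [hvc] at this
  have hend : ∀ e : ℝ, e ∈ Icc (c - r) (c + r) → (e - c) ^ 2 = r ^ 2 → f e - par 0 K c e < f c := by
    intro e he he2
    have h1 : par 0 K c e = 2 * |C| + 1 := by
      simp only [par, he2, zero_mul, zero_add]; exact hKr
    have h2 := hC e he
    rw [Real.norm_eq_abs] at h2
    have h3 := (abs_le.1 h2).2
    have h4 : C ≤ |C| := le_abs_self C
    rw [h1]
    linarith
  have ht1 : t ≠ c - r := by
    rintro rfl
    have := hend (c - r) ⟨le_refl _, by linarith⟩ (by ring)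
    linarith
  have ht2 : t ≠ c + r := by
    rintro rfl
    have := hend (c + r) ⟨by linarith, le_refl _⟩ (by ring)
    linarith
  have htI : t ∈ Ioo (c - r) (c + r) :=
    ⟨lt_of_le_of_ne htm.1 (Ne.symm ht1), lt_of_le_of_ne htm.2 ht2⟩
  exact ⟨K, t, hsub htm, IsMaxOn.isLocalMax htmax (Icc_mem_nhds htI.1 htI.2)⟩

lemma exists_touch_min {f : ℝ → ℝ} {c ρ : ℝ} (hρ : 0 < ρ)
    (hf : ContinuousOn f (Ioo (c - ρ) (c + ρ))) :
    ∃ K t, t ∈ Ioo (c - ρ) (c + ρ) ∧ IsLocalMin (fun τ => f τ - par 0 K c τ) t := by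
  obtain ⟨K, t, ht, hl⟩ := exists_touch (f := fun τ => - f τ) hρ hf.neg
  refine ⟨-K, t, ht, ?_⟩
  show ∀ᶠ x in 𝓝 t, f t - par 0 (-K) c t ≤ f x - par 0 (-K) c x
  have hl' : ∀ᶠ x in 𝓝 t, - f x - par 0 K c x ≤ - f t - par 0 K c t := hl
  filter_upwards [hl'] with x hx
  simp only [par] at hx ⊢
  linarith

lemma sum_split {ι : Type*} [Fintype ι] [DecidableEq ι] (W V : ι → ℝ) (i : ι)
    (h : ∀ j, j ≠ i → W j = V j) : |∑ j, W j - W i| ≤ ∑ j, |V j| := by
  rw [← Finset.add_sum_erase Finset.univ W (Finset.mem_univ i), add_sub_cancel_left]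
  calc |∑ j ∈ Finset.univ.erase i, W j| ≤ ∑ j ∈ Finset.univ.erase i, |W j| :=
        Finset.abs_sum_le_sum_abs _ _
    _ = ∑ j ∈ Finset.univ.erase i, |V j| := by
        refine Finset.sum_congr rfl fun j hj => ?_
        rw [h j (Finset.ne_of_mem_erase hj)]
    _ ≤ ∑ j, |V j| :=
        Finset.sum_le_sum_of_subset_of_nonneg (Finset.subset_univ _) (fun _ _ _ => abs_nonneg _)

/-- Main local theorem: each separated factor is `C^1` with a Hoelder bound. -/
theorem factors {d : ℕ} {Ω : Set (E d)} (hΩ : IsOpen Ω) {u : E d → ℝ}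
    (hu : IsInfinityHarmonic Ω u) {f : Fin d → ℝ → ℝ} (hsep : ∀ x ∈ Ω, u x = ∑ i, f i (x i))
    {z : E d} (hz : z ∈ Ω) :
    ∃ ρ > 0, (∀ x : E d, (∀ j, |x j - z j| < ρ) → x ∈ Ω) ∧ ∃ C : ℝ, 0 ≤ C ∧
      ∀ i, (∀ x ∈ Ioo (z i - ρ) (z i + ρ), DifferentiableAt ℝ (f i) x) ∧
        (∀ x ∈ Ioo (z i - ρ) (z i + ρ), ∀ y ∈ Ioo (z i - ρ) (z i + ρ),
          |deriv (f i) x - deriv (f i) y| ^ 3 ≤ C * |x - y|) := by
  classical
  obtain ⟨ρ, hρ, hbox⟩ := exists_box hΩ hz
  refine ⟨ρ, hρ, hbox, ?_⟩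
  have hcont : ∀ j, ContinuousOn (f j) (Ioo (z j - ρ) (z j + ρ)) := by
    intro j
    set c := ∑ k ∈ Finset.univ.erase j, f k (z k) with hc
    set w : ℝ → E d := fun τ => WithLp.toLp 2 (Function.update z.ofLp j τ) with hw
    have hwc : Continuous w :=
      (PiLp.continuous_toLp 2 _).comp (continuous_const.update j continuous_id)
    have hwj : ∀ τ, w τ j = τ := fun τ => by simp [hw]
    have hwk : ∀ τ k, k ≠ j → w τ k = z k := fun τ k hk => by
      simp [hw, Function.update_of_ne hk]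
    have hwmem : ∀ τ ∈ Ioo (z j - ρ) (z j + ρ), w τ ∈ Ω := by
      intro τ hτ
      refine hbox _ fun k => ?_
      by_cases hk : k = j
      · subst hk
        rw [hwj]
        exact abs_lt.2 ⟨by linarith [hτ.1], by linarith [hτ.2]⟩
      · rw [hwk τ k hk]; simpa using hρ
    have heq : ∀ τ ∈ Ioo (z j - ρ) (z j + ρ), u (w τ) - c = f j τ := by
      intro τ hτ
      rw [hsep _ (hwmem τ hτ), ← Finset.add_sum_erase Finset.univ _ (Finset.mem_univ j), hwj]
      have : ∑ k ∈ Finset.univ.erase j, f k (w τ k) = c :=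
        Finset.sum_congr rfl fun k hk => by rw [hwk τ k (Finset.ne_of_mem_erase hk)]
      rw [this]; ring
    exact ContinuousOn.congr ((hu.1.comp hwc.continuousOn hwmem).sub continuousOn_const)
      (fun τ hτ => (heq τ hτ).symm)
  choose Kp tp htp hlp using fun j => exists_touch hρ (hcont j)
  choose Km tm htm hlm using fun j => exists_touch_min hρ (hcont j)
  set Vp : Fin d → ℝ := fun j => (0 + Kp j * (tp j - z j)) ^ 2 * Kp j with hVp
  set Vm : Fin d → ℝ := fun j => (0 + Km j * (tm j - z j)) ^ 2 * Km j with hVm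
  set A := ∑ j, |Vp j| + ∑ j, |Vm j| with hAdef
  have hVp0 : 0 ≤ ∑ j, |Vp j| := Finset.sum_nonneg fun _ _ => abs_nonneg _
  have hVm0 : 0 ≤ ∑ j, |Vm j| := Finset.sum_nonneg fun _ _ => abs_nonneg _
  have hA0 : 0 ≤ A := add_nonneg hVp0 hVm0
  have habove : ∀ i s q c t, t ∈ Ioo (z i - ρ) (z i + ρ) →
      IsLocalMax (fun τ => f i τ - par s q c τ) t → - A ≤ (s + q * (t - c)) ^ 2 * q := by
    intro i s q c t ht hloc
    set s' : Fin d → ℝ := Function.update (fun _ => 0) i s with hs'
    set q' : Fin d → ℝ := Function.update Kp i q with hq'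
    set c' : Fin d → ℝ := Function.update z.ofLp i c with hc'
    set t' : Fin d → ℝ := Function.update tp i t with ht'
    set x : E d := WithLp.toLp 2 t' with hx
    have hxj : ∀ j, x j = t' j := fun j => rfl
    have hxΩ : x ∈ Ω := by
      refine hbox _ fun j => ?_
      rw [hxj]
      by_cases hj : j = i
      · subst hj
        simp only [ht', Function.update_self]
        exact abs_lt.2 ⟨by linarith [ht.1], by linarith [ht.2]⟩
      · simp only [ht', Function.update_of_ne hj]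
        exact abs_lt.2 ⟨by linarith [(htp j).1], by linarith [(htp j).2]⟩
    have hall := tuple_max hΩ hu hsep s' q' c' x hxΩ (fun j => by
      rw [hxj]
      by_cases hj : j = i
      · subst hj
        simpa only [hs', hq', hc', ht', Function.update_self] using hloc
      · have h2 := hlp j
        simp only [hs', hq', hc', ht', Function.update_of_ne hj]
        exact h2)
    have hsp := sum_split (fun j => (s' j + q' j * (x j - c' j)) ^ 2 * q' j) Vp i (fun j hj => by
      simp only [hxj, hs', hq', hc', ht', Function.update_of_ne hj, hVp])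
    have hWi : (s' i + q' i * (x i - c' i)) ^ 2 * q' i = (s + q * (t - c)) ^ 2 * q := by
      simp only [hxj, hs', hq', hc', ht', Function.update_self]
    simp only at hsp
    rw [hWi] at hsp
    have := (abs_le.1 hsp).2
    linarith
  have hbelow : ∀ i s q c t, t ∈ Ioo (z i - ρ) (z i + ρ) →
      IsLocalMin (fun τ => f i τ - par s q c τ) t → (s + q * (t - c)) ^ 2 * q ≤ A := by
    intro i s q c t ht hloc
    set s' : Fin d → ℝ := Function.update (fun _ => 0) i s with hs'
    set q' : Fin d → ℝ := Function.update Km i q with hq'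
    set c' : Fin d → ℝ := Function.update z.ofLp i c with hc'
    set t' : Fin d → ℝ := Function.update tm i t with ht'
    set x : E d := WithLp.toLp 2 t' with hx
    have hxj : ∀ j, x j = t' j := fun j => rfl
    have hxΩ : x ∈ Ω := by
      refine hbox _ fun j => ?_
      rw [hxj]
      by_cases hj : j = i
      · subst hj
        simp only [ht', Function.update_self]
        exact abs_lt.2 ⟨by linarith [ht.1], by linarith [ht.2]⟩
      · simp only [ht', Function.update_of_ne hj]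
        exact abs_lt.2 ⟨by linarith [(htm j).1], by linarith [(htm j).2]⟩
    have hall := tuple_min hΩ hu hsep s' q' c' x hxΩ (fun j => by
      rw [hxj]
      by_cases hj : j = i
      · subst hj
        simpa only [hs', hq', hc', ht', Function.update_self] using hloc
      · have h2 := hlm j
        simp only [hs', hq', hc', ht', Function.update_of_ne hj]
        exact h2)
    have hsp := sum_split (fun j => (s' j + q' j * (x j - c' j)) ^ 2 * q' j) Vm i (fun j hj => by
      simp only [hxj, hs', hq', hc', ht', Function.update_of_ne hj, hVm])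
    have hWi : (s' i + q' i * (x i - c' i)) ^ 2 * q' i = (s + q * (t - c)) ^ 2 * q := by
      simp only [hxj, hs', hq', hc', ht', Function.update_self]
    simp only at hsp
    rw [hWi] at hsp
    have := (abs_le.1 hsp).1
    linarith
  refine ⟨32 * (16 * A), by positivity, fun i => ?_⟩
  have hgap : ∀ x y w : ℝ, z i - ρ < x → x < y → y < w → w < z i + ρ →
      |slope (f i) y w - slope (f i) x y| ^ 3 ≤ (16 * A) * (w - x) := by
    intro x y w hx hxy hyw hw
    have h1 := slope_gap (hcont i) hA0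
      (fun s q c t _ ht hl => hbelow i s q c t ht hl) hx hxy hyw hw
    have h2 := slope_gap (f := fun τ => - f i τ) (hcont i).neg hA0
      (fun s q c t _ ht hl => by
        have hmax : IsLocalMax (fun τ => f i τ - par (-s) (-q) c τ) t := by
          show ∀ᶠ x in 𝓝 t, f i x - par (-s) (-q) c x ≤ f i t - par (-s) (-q) c t
          have hl' : ∀ᶠ x in 𝓝 t, - f i t - par s q c t ≤ - f i x - par s q c x := hl
          filter_upwards [hl'] with x hx
          simp only [par] at hx ⊢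
          linarith
        have h3 := habove i (-s) (-q) c t ht hmax
        have e : (-s + -q * (t - c)) ^ 2 * -q = - ((s + q * (t - c)) ^ 2 * q) := by ring
        rw [e] at h3
        linarith) hx hxy hyw hw
    rw [slope_def_field, slope_def_field]
    have e : (- f i w - - f i y) / (w - y) - (- f i y - - f i x) / (y - x)
        = - ((f i w - f i y) / (w - y) - (f i y - f i x) / (y - x)) := by ring
    rw [e] at h2
    rcases abs_cases ((f i w - f i y) / (w - y) - (f i y - f i x) / (y - x)) with ⟨h3, _⟩ | ⟨h3, _⟩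
    · rw [h3]; exact h1
    · rw [h3]; exact h2
  exact deriv_of_chords (by positivity) hgap

/-- Separable infinity-harmonic functions are `C^1`. -/
theorem main {d : ℕ} {Ω : Set (E d)} (hΩ : IsOpen Ω) {u : E d → ℝ}
    (hu : IsInfinityHarmonic Ω u) {f : Fin d → ℝ → ℝ} (hsep : ∀ x ∈ Ω, u x = ∑ i, f i (x i)) :
    ContDiffOn ℝ 1 u Ω := by
  intro z hz
  apply ContDiffAt.contDiffWithinAt
  obtain ⟨ρ, hρ, hbox, C, hC, hfac⟩ := factors hΩ hu hsep hz
  have hC1 : ∀ i, ContDiffAt ℝ 1 (f i) (z i) := by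
    intro i
    obtain ⟨hdiff, hhol⟩ := hfac i
    have hcd : ContinuousOn (deriv (f i)) (Ioo (z i - ρ) (z i + ρ)) := by
      intro x hx
      rw [Metric.continuousWithinAt_iff]
      intro ε hε
      refine ⟨ε ^ 3 / (C + 1), by positivity, fun y hy hxy => ?_⟩
      rw [Real.dist_eq] at hxy ⊢
      have h1 := hhol y hy x hx
      have h2 : C * |y - x| < ε ^ 3 := by
        have h3 : C * |y - x| ≤ C * (ε ^ 3 / (C + 1)) := by gcongr
        have h4 : C * (ε ^ 3 / (C + 1)) < ε ^ 3 := by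
          have : C * (ε ^ 3 / (C + 1)) = ε ^ 3 * (C / (C + 1)) := by ring
          rw [this]
          have h5 : C / (C + 1) < 1 := by
            rw [div_lt_one (by positivity)]; linarith
          have h6 : 0 < ε ^ 3 := by positivity
          nlinarith
        linarith
      exact lt_of_pow_lt_pow_left₀ 3 hε.le (h1.trans_lt h2)
    have h1 : ContDiffOn ℝ 1 (f i) (Ioo (z i - ρ) (z i + ρ)) :=
      (contDiffOn_one_iff_derivWithin isOpen_Ioo.uniqueDiffOn).2
        ⟨fun x hx => (hdiff x hx).differentiableWithinAt,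
          hcd.congr (fun x hx => derivWithin_of_isOpen isOpen_Ioo hx)⟩
    exact h1.contDiffAt (Ioo_mem_nhds (by linarith) (by linarith))
  have hs : ContDiffAt ℝ 1 (fun x : E d => ∑ j, f j (x j)) z :=
    ContDiffAt.sum (fun j _ =>
      (hC1 j).comp z (EuclideanSpace.proj j : E d →L[ℝ] ℝ).contDiff.contDiffAt)
  exact hs.congr_of_eventuallyEq
    (by filter_upwards [hΩ.mem_nhds hz] with x hx using hsep x hx)

end Vale.Agent.P080h22
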