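import Mathlib

namespace Vale.Agent.P080h22.S1D

open Filter Topology Set

/-- The parabola used as a test function. -/
noncomputable def par (s q c : ℝ) : ℝ → ℝ := fun t => s * (t - c) + q / 2 * (t - c) ^ 2

lemma hasDerivAt_par (s q c t : ℝ) : HasDerivAt (par s q c) (s + q * (t - c)) t := by
  have h1 : HasDerivAt (fun t : ℝ => t - c) 1 t := (hasDerivAt_id t).sub_const c
  have h2 : HasDerivAt (fun t : ℝ => s * (t - c) + q / 2 * ((t - c) * (t - c)))
      (s * 1 + q / 2 * (1 * (t - c) + (t - c) * 1)) t :=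
    (h1.const_mul s).add ((h1.mul h1).const_mul (q / 2))
  have e : par s q c = fun t : ℝ => s * (t - c) + q / 2 * ((t - c) * (t - c)) := by
    funext x; simp only [par]; ring
  rw [e]
  convert h2 using 1
  ring

lemma deriv_par (s q c : ℝ) : deriv (par s q c) = fun t => s + q * (t - c) :=
  funext fun t => (hasDerivAt_par s q c t).deriv

lemma deriv_deriv_par (s q c t : ℝ) : deriv (deriv (par s q c)) t = q := by
  rw [deriv_par]
  have h1 : HasDerivAt (fun t : ℝ => t - c) 1 t := (hasDerivAt_id t).sub_const c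
  have h2 := (h1.const_mul q).const_add s
  simpa using h2.deriv

lemma contDiff_par (s q c : ℝ) : ContDiff ℝ 2 (par s q c) := by
  unfold par
  fun_prop

/-- Tilted parabolas: the core of the argument. -/
theorem slope_gap {a b : ℝ} {f : ℝ → ℝ} (hf : ContinuousOn f (Ioo a b)) {B : ℝ} (hB : 0 ≤ B)
    (hmin : ∀ s q c t : ℝ, 0 < q → t ∈ Ioo a b →
      IsLocalMin (fun τ => f τ - par s q c τ) t → (s + q * (t - c)) ^ 2 * q ≤ B)
    {x y z : ℝ} (hax : a < x) (hxy : x < y) (hyz : y < z) (hzb : z < b) :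
    ((f z - f y) / (z - y) - (f y - f x) / (y - x)) ^ 3 ≤ 16 * B * (z - x) := by
  by_contra hcon
  push Not at hcon
  set h₁ := y - x with hh₁
  set h₂ := z - y with hh₂
  have hh₁p : 0 < h₁ := by simp only [hh₁]; linarith
  have hh₂p : 0 < h₂ := by simp only [hh₂]; linarith
  have hh : z - x = h₁ + h₂ := by simp only [hh₁, hh₂]; ring
  set s1 := (f y - f x) / h₁ with hs1
  set s2 := (f z - f y) / h₂ with hs2
  have hfx : f x = f y - s1 * h₁ := by simp only [hs1]; field_simp; ring
  have hfz : f z = f y + s2 * h₂ := by simp only [hs2]; field_simp; ring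
  set D := s2 - s1 with hD
  have hhp : 0 < h₁ + h₂ := by linarith
  have hDpos : 0 < D := by
    by_contra hneg
    push Not at hneg
    have h3 : D ^ 3 ≤ 0 := by
      have : D ^ 3 = D * D ^ 2 := by ring
      rw [this]
      exact mul_nonpos_of_nonpos_of_nonneg hneg (sq_nonneg D)
    have h4 : 0 ≤ 16 * B * (z - x) := by
      rw [hh]; positivity
    linarith
  set q := D / (h₁ + h₂) with hq
  have hqp : 0 < q := div_pos hDpos hhp
  have hqh : q * (h₁ + h₂) = D := by simp only [hq]; field_simp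
  set r := Real.sqrt (B / q) with hr
  have hr0 : 0 ≤ r := Real.sqrt_nonneg _
  have hr2 : r ^ 2 = B / q := Real.sq_sqrt (div_nonneg hB hqp.le)
  have hrD : r < D / 4 := by
    have h5 : r ^ 2 < (D / 4) ^ 2 := by
      rw [hr2, div_lt_iff₀ hqp]
      have h6 : 16 * B * (h₁ + h₂) < D ^ 3 := by rw [← hh]; exact hcon
      have h7 : (D / 4) ^ 2 * q = D ^ 3 / (16 * (h₁ + h₂)) := by
        simp only [hq]; field_simp; norm_num
      rw [h7, lt_div_iff₀ (by positivity)]
      linarith
    exact lt_of_pow_lt_pow_left₀ 2 (by positivity) h5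
  -- The touching lemma
  have touch : ∀ s : ℝ, s1 + q * h₁ / 2 < s → s < s2 - q * h₂ / 2 →
      ∃ t ∈ Ioo x z, (∀ τ ∈ Icc x z, f t - par s q y t ≤ f τ - par s q y τ) ∧
        |s + q * (t - y)| ≤ r := by
    intro s hs1' hs2'
    have hsub : Icc x z ⊆ Ioo a b := fun τ hτ => ⟨by linarith [hτ.1], by linarith [hτ.2]⟩
    have hcont : ContinuousOn (fun τ => f τ - par s q y τ) (Icc x z) :=
      (hf.mono hsub).sub (contDiff_par s q y).continuous.continuousOn
    obtain ⟨t, htm, htmin⟩ := isCompact_Icc.exists_isMinOn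
      (nonempty_Icc.2 (by linarith)) hcont
    have hvy : f y - par s q y y = f y := by simp [par]
    have hvx : f y < f x - par s q y x := by
      have : f x - par s q y x = f y + h₁ * (s - s1 - q * h₁ / 2) := by
        have hxe : x - y = -h₁ := by simp only [hh₁]; ring
        simp only [par, hxe, hfx]; ring
      rw [this]
      have : 0 < h₁ * (s - s1 - q * h₁ / 2) := mul_pos hh₁p (by linarith)
      linarith
    have hvz : f y < f z - par s q y z := by
      have : f z - par s q y z = f y + h₂ * (s2 - s - q * h₂ / 2) := by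
        have hze : z - y = h₂ := rfl
        simp only [par, hze, hfz]; ring
      rw [this]
      have : 0 < h₂ * (s2 - s - q * h₂ / 2) := mul_pos hh₂p (by linarith)
      linarith
    have hmin' : ∀ τ ∈ Icc x z, f t - par s q y t ≤ f τ - par s q y τ := fun τ hτ => htmin hτ
    have hty : f t - par s q y t ≤ f y := by
      have := hmin' y ⟨hxy.le, hyz.le⟩
      rwa [hvy] at this
    have htx : t ≠ x := by
      rintro rfl
      linarith
    have htz : t ≠ z := by
      rintro rfl
      linarith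
    have htI : t ∈ Ioo x z := ⟨lt_of_le_of_ne htm.1 (Ne.symm htx), lt_of_le_of_ne htm.2 htz⟩
    refine ⟨t, htI, hmin', ?_⟩
    have hloc : IsLocalMin (fun τ => f τ - par s q y τ) t := by
      have hnb : Icc x z ∈ 𝓝 t := Icc_mem_nhds htI.1 htI.2
      exact IsMinOn.isLocalMin htmin hnb
    have hkey := hmin s q y t hqp (hsub htm) hloc
    have hle : (s + q * (t - y)) ^ 2 ≤ B / q := by
      rw [le_div_iff₀ hqp]; exact hkey
    exact Real.abs_le_sqrt hle
  set ε := (D / 2 - 2 * r) / 4 with hε
  have hεp : 0 < ε := by simp only [hε]; linarith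
  have hsum : q * h₁ / 2 + q * h₂ / 2 = D / 2 := by
    have : q * h₁ / 2 + q * h₂ / 2 = q * (h₁ + h₂) / 2 := by ring
    rw [this, hqh]
  obtain ⟨t, htI, htm, htr⟩ := touch (s1 + q * h₁ / 2 + ε) (by linarith) (by
    have : s2 - s1 = D := rfl
    linarith)
  obtain ⟨t', htI', htm', htr'⟩ := touch (s2 - q * h₂ / 2 - ε) (by
    have : s2 - s1 = D := rfl
    linarith) (by linarith)
  set s := s1 + q * h₁ / 2 + ε with hs
  set s' := s2 - q * h₂ / 2 - ε with hs'
  have hss : s' - s = D / 2 - 2 * ε := by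
    simp only [hs, hs']
    have : s2 - s1 = D := rfl
    linarith
  have hss2 : 2 * r < s' - s := by
    rw [hss]
    simp only [hε]
    linarith
  have h1 := htm t' ⟨htI'.1.le, htI'.2.le⟩
  have h2 := htm' t ⟨htI.1.le, htI.2.le⟩
  have h3 : (s' - s) * (t' - t) ≥ 0 := by
    simp only [par] at h1 h2
    nlinarith
  have htt : 0 ≤ t' - t := by
    by_contra hneg
    push Not at hneg
    have : (s' - s) * (t' - t) < 0 := mul_neg_of_pos_of_neg (by linarith) hneg
    linarith
  have h4 : s' + q * (t' - y) ≤ r := (abs_le.1 htr').2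
  have h5 : -r ≤ s + q * (t - y) := (abs_le.1 htr).1
  have h6 : q * (t' - t) ≤ 2 * r - (s' - s) := by linarith
  have h7 : 0 ≤ q * (t' - t) := mul_nonneg hqp.le htt
  linarith

/-- Three chords: a cube bound on the difference of consecutive slopes gives the same bound
for all pairs of chords on three points. -/
theorem chords {a b : ℝ} {f : ℝ → ℝ} {M : ℝ} (hM : 0 ≤ M)
    (h : ∀ x y z : ℝ, a < x → x < y → y < z → z < b →
      |slope f y z - slope f x y| ^ 3 ≤ M * (z - x))
    {p q w : ℝ} (hp : p ∈ Ioo a b) (hq : q ∈ Ioo a b) (hw : w ∈ Ioo a b)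
    (hpq : p ≠ q) (hpw : p ≠ w) {L : ℝ} (hq' : |q - p| ≤ L) (hw' : |w - p| ≤ L) :
    |slope f p q - slope f p w| ^ 3 ≤ M * (2 * L) := by
  have hL : 0 ≤ L := le_trans (abs_nonneg _) hq'
  -- convex combination on x<y<z
  have conv : ∀ x y z : ℝ, x < y → y < z →
      slope f x z = ((y - x) * slope f x y + (z - y) * slope f y z) / (z - x) := by
    intro x y z hxy hyz
    have h1 : y - x ≠ 0 := (sub_pos.2 hxy).ne'
    have h2 : z - y ≠ 0 := (sub_pos.2 hyz).ne'
    have h3 : z - x ≠ 0 := (sub_pos.2 (hxy.trans hyz)).ne'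
    simp only [slope_def_field]
    field_simp
    ring
  have case2 : ∀ x y z : ℝ, a < x → x < y → y < z → z < b →
      |slope f x y - slope f x z| ^ 3 ≤ M * (z - x) := by
    intro x y z hax hxy hyz hzb
    have h0 := h x y z hax hxy hyz hzb
    have hc := conv x y z hxy hyz
    have hzx : 0 < z - x := sub_pos.2 (hxy.trans hyz)
    have he : slope f x y - slope f x z
        = (z - y) / (z - x) * (slope f x y - slope f y z) := by
      rw [hc]; field_simp; ring
    have hle : |slope f x y - slope f x z| ≤ |slope f y z - slope f x y| := by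
      rw [he, abs_mul, abs_sub_comm (slope f x y)]
      have h01 : |(z - y) / (z - x)| ≤ 1 := by
        rw [abs_of_pos (div_pos (sub_pos.2 hyz) hzx), div_le_one hzx]
        linarith
      calc _ ≤ 1 * |slope f y z - slope f x y| := by gcongr
        _ = _ := one_mul _
    exact le_trans (pow_le_pow_left₀ (abs_nonneg _) hle 3) h0
  have case3 : ∀ x y z : ℝ, a < x → x < y → y < z → z < b →
      |slope f x z - slope f y z| ^ 3 ≤ M * (z - x) := by
    intro x y z hax hxy hyz hzb
    have h0 := h x y z hax hxy hyz hzb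
    have hc := conv x y z hxy hyz
    have hzx : 0 < z - x := sub_pos.2 (hxy.trans hyz)
    have he : slope f x z - slope f y z
        = (y - x) / (z - x) * (slope f x y - slope f y z) := by
      rw [hc]; field_simp; ring
    have hle : |slope f x z - slope f y z| ≤ |slope f y z - slope f x y| := by
      rw [he, abs_mul, abs_sub_comm (slope f x y)]
      have h01 : |(y - x) / (z - x)| ≤ 1 := by
        rw [abs_of_pos (div_pos (sub_pos.2 hxy) hzx), div_le_one hzx]
        linarith
      calc _ ≤ 1 * |slope f y z - slope f x y| := by gcongr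
        _ = _ := one_mul _
    exact le_trans (pow_le_pow_left₀ (abs_nonneg _) hle 3) h0
  have bound : ∀ x z : ℝ, |x - p| ≤ L → |z - p| ≤ L → z - x ≤ 2 * L := by
    intro x z hx hz
    have := abs_le.1 hx
    have := abs_le.1 hz
    linarith
  have hmono : ∀ t : ℝ, t ≤ 2 * L → M * t ≤ M * (2 * L) := fun t ht =>
    mul_le_mul_of_nonneg_left ht hM
  have hpp : |p - p| ≤ L := by simpa using hL
  -- it suffices to treat q < w
  have main : ∀ q w : ℝ, q ∈ Ioo a b → w ∈ Ioo a b → p ≠ q → p ≠ w → |q - p| ≤ L → |w - p| ≤ L →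
      q < w → |slope f p q - slope f p w| ^ 3 ≤ M * (2 * L) := by
    intro q w hq hw hpq hpw hq' hw' hqw
    rcases lt_trichotomy p q with h1 | h1 | h1
    · exact (case2 p q w hp.1 h1 hqw hw.2).trans (hmono _ (bound _ _ hpp hw'))
    · exact absurd h1 hpq
    · rcases lt_trichotomy p w with h2 | h2 | h2
      · have := h q p w hq.1 h1 h2 hw.2
        rw [slope_comm f p q, abs_sub_comm]
        exact this.trans (hmono _ (bound _ _ hq' hw'))
      · exact absurd h2 hpw
      · have := case3 q w p hq.1 hqw h2 hp.2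
        rw [slope_comm f p q, slope_comm f p w]
        exact this.trans (hmono _ (bound _ _ hq' hpp))
  rcases lt_trichotomy q w with h1 | h1 | h1
  · exact main q w hq hw hpq hpw hq' hw' h1
  · subst h1
    simp only [sub_self, abs_zero]
    have : 0 ≤ M * (2 * L) := by positivity
    simpa using this
  · rw [abs_sub_comm]
    exact main w q hw hq hpw hpq hw' hq' h1

/-- Cube bound on slopes gives differentiability and a 1/3 Hoelder bound for the derivative. -/
theorem deriv_of_chords {a b : ℝ} {f : ℝ → ℝ} {M : ℝ} (hM : 0 ≤ M)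
    (h : ∀ x y z : ℝ, a < x → x < y → y < z → z < b →
      |slope f y z - slope f x y| ^ 3 ≤ M * (z - x)) :
    (∀ x ∈ Ioo a b, DifferentiableAt ℝ f x) ∧
    (∀ x ∈ Ioo a b, ∀ y ∈ Ioo a b, |deriv f x - deriv f y| ^ 3 ≤ 32 * M * |x - y|) := by
  have hd : ∀ x ∈ Ioo a b, ∃ g, Tendsto (slope f x) (𝓝[≠] x) (𝓝 g) := by
    intro x hx
    rw [← cauchy_map_iff_exists_tendsto, Metric.cauchy_iff]
    refine ⟨inferInstance, ?_⟩
    intro ε hε
    obtain ⟨δ, hδ, hδa, hδb, hδM⟩ : ∃ δ : ℝ, 0 < δ ∧ a < x - δ ∧ x + δ < b ∧ M * (2 * δ) < ε ^ 3 := by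
      have hε3 : 0 < ε ^ 3 := by positivity
      refine ⟨min (min ((x - a) / 2) ((b - x) / 2)) (ε ^ 3 / (2 * (M + 1)) / 2), ?_, ?_, ?_, ?_⟩
      · have := hx.1; have := hx.2
        apply lt_min (lt_min (by linarith) (by linarith))
        positivity
      · have : min (min ((x - a) / 2) ((b - x) / 2)) (ε ^ 3 / (2 * (M + 1)) / 2) ≤ (x - a) / 2 :=
          (min_le_left _ _).trans (min_le_left _ _)
        have := hx.1
        linarith
      · have : min (min ((x - a) / 2) ((b - x) / 2)) (ε ^ 3 / (2 * (M + 1)) / 2) ≤ (b - x) / 2 :=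
          (min_le_left _ _).trans (min_le_right _ _)
        have := hx.2
        linarith
      · have h1 : min (min ((x - a) / 2) ((b - x) / 2)) (ε ^ 3 / (2 * (M + 1)) / 2)
            ≤ ε ^ 3 / (2 * (M + 1)) / 2 := min_le_right _ _
        set δ := min (min ((x - a) / 2) ((b - x) / 2)) (ε ^ 3 / (2 * (M + 1)) / 2)
        have h2 : M * (2 * δ) ≤ M * (2 * (ε ^ 3 / (2 * (M + 1)) / 2)) := by gcongr
        have h3 : M * (2 * (ε ^ 3 / (2 * (M + 1)) / 2)) < ε ^ 3 := by
          have : M * (2 * (ε ^ 3 / (2 * (M + 1)) / 2)) = ε ^ 3 * (M / (2 * (M + 1))) := by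
            field_simp
          rw [this]
          have h4 : M / (2 * (M + 1)) < 1 := by
            rw [div_lt_one (by positivity)]
            linarith
          nlinarith
        linarith
    refine ⟨slope f x '' (Metric.ball x δ ∩ {x}ᶜ), ?_, ?_⟩
    · apply image_mem_map
      exact Filter.inter_mem (mem_nhdsWithin_of_mem_nhds (Metric.ball_mem_nhds x hδ)) self_mem_nhdsWithin
    · rintro _ ⟨q, ⟨hq1, hq2⟩, rfl⟩ _ ⟨w, ⟨hw1, hw2⟩, rfl⟩
      rw [Real.dist_eq] at *
      have hq3 : |q - x| < δ := by simpa [Real.dist_eq] using hq1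
      have hw3 : |w - x| < δ := by simpa [Real.dist_eq] using hw1
      have hqI : q ∈ Ioo a b := ⟨by linarith [(abs_lt.1 hq3).1], by linarith [(abs_lt.1 hq3).2]⟩
      have hwI : w ∈ Ioo a b := ⟨by linarith [(abs_lt.1 hw3).1], by linarith [(abs_lt.1 hw3).2]⟩
      have := chords hM h hx hqI hwI (Ne.symm hq2) (Ne.symm hw2) hq3.le hw3.le
      exact lt_of_pow_lt_pow_left₀ 3 hε.le (this.trans_lt hδM)
  have hder : ∀ x ∈ Ioo a b, HasDerivAt f (deriv f x) x := by
    intro x hx
    obtain ⟨g, hg⟩ := hd x hx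
    have h1 : HasDerivAt f g x := hasDerivAt_iff_tendsto_slope.2 hg
    rw [h1.deriv]; exact h1
  refine ⟨fun x hx => (hder x hx).differentiableAt, ?_⟩
  -- distance from the derivative to a chord
  have hch : ∀ x ∈ Ioo a b, ∀ y ∈ Ioo a b, x ≠ y →
      |slope f x y - deriv f x| ^ 3 ≤ M * (2 * |x - y|) := by
    intro x hx y hy hxy
    have ht : Tendsto (slope f x) (𝓝[≠] x) (𝓝 (deriv f x)) :=
      hasDerivAt_iff_tendsto_slope.1 (hder x hx)
    have ht2 : Tendsto (fun w => |slope f x y - slope f x w| ^ 3) (𝓝[≠] x)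
        (𝓝 (|slope f x y - deriv f x| ^ 3)) :=
      ((tendsto_const_nhds.sub ht).abs).pow 3
    have hxyp : 0 < |x - y| := abs_pos.2 (sub_ne_zero.2 hxy)
    refine le_of_tendsto ht2 ?_
    have hI : Ioo a b ∈ 𝓝 x := Ioo_mem_nhds hx.1 hx.2
    have hb : Metric.ball x |x - y| ∈ 𝓝 x := Metric.ball_mem_nhds x hxyp
    filter_upwards [nhdsWithin_le_nhds hI, nhdsWithin_le_nhds hb, self_mem_nhdsWithin] with w hw1 hw2 hw3
    have hw4 : |w - x| ≤ |x - y| := by
      have := Metric.mem_ball.1 hw2
      rw [Real.dist_eq] at this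
      exact this.le
    have hy4 : |y - x| ≤ |x - y| := by rw [abs_sub_comm]
    exact chords hM h hx hy hw1 hxy (Ne.symm hw3) hy4 hw4
  intro x hx y hy
  by_cases hxy : x = y
  · subst hxy
    simp only [sub_self, abs_zero]
    have : (0:ℝ) ^ 3 = 0 := by norm_num
    rw [this]; positivity
  · have h1 := hch x hx y hy hxy
    have h2 := hch y hy x hx (Ne.symm hxy)
    rw [slope_comm, abs_sub_comm y x] at h2
    set A := |slope f x y - deriv f x| with hA
    set C := |slope f x y - deriv f y| with hC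
    have hAp : 0 ≤ A := abs_nonneg _
    have hCp : 0 ≤ C := abs_nonneg _
    have htri : |deriv f x - deriv f y| ≤ A + C := by
      have : deriv f x - deriv f y = -(slope f x y - deriv f x) + (slope f x y - deriv f y) := by ring
      rw [this]
      exact (abs_add_le _ _).trans (by rw [abs_neg])
    have h3 : (A + C) ^ 3 ≤ 4 * (A ^ 3 + C ^ 3) := by
      nlinarith [mul_nonneg (add_nonneg hAp hCp) (sq_nonneg (A - C))]
    calc |deriv f x - deriv f y| ^ 3 ≤ (A + C) ^ 3 := pow_le_pow_left₀ (abs_nonneg _) htri 3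
      _ ≤ 4 * (A ^ 3 + C ^ 3) := h3
      _ ≤ 4 * (M * (2 * |x - y|) + M * (2 * |x - y|)) := by gcongr
      _ ≤ 32 * M * |x - y| := by
        have : 0 ≤ M * |x - y| := by positivity
        nlinarith

end Vale.Agent.P080h22.S1D
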